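import Mathlib.Topology.Algebra.ConstMulAction
import Mathlib.Topology.Homeomorph.Lemmas
import Mathlib.Topology.Ultrafilter
import Mathlib.GroupTheory.GroupAction.Quotient
import Mathlib.Algebra.Group.Subgroup.Pointwise

/-!
# Coarse expansivity and coarse shadowing for groups of homeomorphisms of closed manifolds

`Λ` acts on `X` by homeomorphisms, the normal subgroup `Γ` acts freely, properly discontinuously and
cocompactly.
-/

open Set Topology Filter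

namespace Vale.Agent.P260.H135

variable {Λ : Type*} [Group Λ]

/-- The points `x`, `x'` are `K`-close modulo `Γ`: some `γ ∈ Γ` moves the pair into `K`. -/
def Near (Γ : Subgroup Λ) {X : Type*} [MulAction Λ X] (K : Set (X × X)) (x x' : X) : Prop :=
  ∃ γ ∈ Γ, (γ • x, γ • x') ∈ K

/-- Coarse expansivity: two points whose `Λ`-orbits stay close modulo `Γ` are equal. -/
def Expansive (Γ : Subgroup Λ) (X : Type*) [TopologicalSpace X] [MulAction Λ X] : Prop :=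
  ∀ x x' : X, (∃ K : Set (X × X), IsCompact K ∧ ∀ l : Λ, Near Γ K (l • x) (l • x')) → x = x'

/-- Coarse shadowing: every `Γ`-equivariant pseudo-orbit of `Λ` stays close to an orbit. -/
def Shadowing (Γ : Subgroup Λ) (X : Type*) [TopologicalSpace X] [MulAction Λ X] : Prop :=
  ∀ K : Λ → Set (X × X), (∀ m, IsCompact (K m)) → ∃ K' : Set (X × X), IsCompact K' ∧
    ∀ u : Λ → X, (∀ γ ∈ Γ, ∀ l, u (γ * l) = γ • u l) →
      (∀ m l, Near Γ (K m) (m • u l) (u (m * l))) → ∃ x : X, ∀ l, Near Γ K' (l • x) (u l)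

/-- `Λ` acts by homeomorphisms and `Γ` acts freely, properly discontinuously, cocompactly. -/
structure Geom (Γ : Subgroup Λ) (X : Type*) [TopologicalSpace X] [MulAction Λ X] : Prop where
  cont : ∀ l : Λ, Continuous fun x : X => l • x
  free : ∀ γ ∈ Γ, ∀ x : X, γ • x = x → γ = 1
  proper : ∀ K L : Set X, IsCompact K → IsCompact L →
    {γ : Λ | γ ∈ Γ ∧ ∃ x ∈ K, γ • x ∈ L}.Finite
  cocompact : ∃ C : Set X, IsCompact C ∧ ∀ x, ∃ γ ∈ Γ, γ • x ∈ C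

/-- A map sends compact sets into compact sets. -/
def Bdd {X Y : Type*} [TopologicalSpace X] [TopologicalSpace Y] (h : X → Y) : Prop :=
  ∀ A : Set X, IsCompact A → ∃ B : Set Y, IsCompact B ∧ ∀ x ∈ A, h x ∈ B

/-- A dense set of `Λ`-orbits of `Y` is globally shadowed by `Λ`-orbits of `X`: with respect to
some `Γ`-equivariant map `h : Y → X` sending compact sets into compact sets, the `Λ`-orbit of every
`y` in some dense set stays uniformly close modulo `Γ` to the `Λ`-orbit of some `x : X`. -/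
def GlobShadow (Γ : Subgroup Λ) (X Y : Type*) [TopologicalSpace X] [MulAction Λ X]
    [TopologicalSpace Y] [MulAction Λ Y] : Prop :=
  ∃ h : Y → X, Bdd h ∧ (∀ γ ∈ Γ, ∀ y, h (γ • y) = γ • h y) ∧
    ∃ K : Set (X × X), IsCompact K ∧ ∃ D : Set Y, Dense D ∧
      ∀ y ∈ D, ∃ x : X, ∀ l : Λ, Near Γ K (l • x) (h (l • y))

section near

variable {Γ : Subgroup Λ} {X : Type*} [TopologicalSpace X] [MulAction Λ X]

theorem near_symm {K : Set (X × X)} (hK : IsCompact K) : ∃ L : Set (X × X), IsCompact L ∧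
    ∀ x x', Near Γ K x x' → Near Γ L x' x :=
  ⟨Prod.swap '' K, hK.image continuous_swap, fun x x' ⟨γ, hγ, h⟩ => ⟨γ, hγ, _, h, rfl⟩⟩

theorem near_trans (G : Geom Γ X) {K L : Set (X × X)} (hK : IsCompact K) (hL : IsCompact L) :
    ∃ M : Set (X × X), IsCompact M ∧ ∀ a b c, Near Γ K a b → Near Γ L b c → Near Γ M a c := by
  have hB : IsCompact (Prod.snd '' K ∪ Prod.fst '' L) :=
    (hK.image continuous_snd).union (hL.image continuous_fst)
  have hF := G.proper _ _ hB hB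
  refine ⟨(Prod.fst '' K) ×ˢ (⋃ f ∈ {γ : Λ | γ ∈ Γ ∧ ∃ x ∈ Prod.snd '' K ∪ Prod.fst '' L,
    γ • x ∈ Prod.snd '' K ∪ Prod.fst '' L}, (fun x => f • x) '' (Prod.snd '' L)),
    (hK.image continuous_fst).prod (hF.isCompact_biUnion fun f _ =>
      (hL.image continuous_snd).image (G.cont f)), ?_⟩
  rintro a b c ⟨γ, hγ, h1⟩ ⟨δ, hδ, h2⟩
  refine ⟨γ, hγ, ⟨_, h1, rfl⟩, ?_⟩
  simp only [mem_iUnion]
  refine ⟨γ * δ⁻¹, ⟨Γ.mul_mem hγ (Γ.inv_mem hδ), δ • b, Or.inr ⟨_, h2, rfl⟩,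
    Or.inl ⟨_, h1, ?_⟩⟩, δ • c, ⟨_, h2, rfl⟩, ?_⟩
  · simp [mul_smul]
  · simp [mul_smul]

theorem near_bdd (G : Geom Γ X) {K : Set (X × X)} (hK : IsCompact K) {B : Set X}
    (hB : IsCompact B) : ∃ B' : Set X, IsCompact B' ∧ ∀ a b, b ∈ B → Near Γ K a b → a ∈ B' := by
  have hF := G.proper _ _ hB (hK.image continuous_snd)
  refine ⟨⋃ f ∈ {γ : Λ | γ ∈ Γ ∧ ∃ x ∈ B, γ • x ∈ Prod.snd '' K},
    (fun x => f⁻¹ • x) '' (Prod.fst '' K), hF.isCompact_biUnion fun f _ =>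
      (hK.image continuous_fst).image (G.cont f⁻¹), ?_⟩
  rintro a b hb ⟨γ, hγ, h⟩
  simp only [mem_iUnion]
  exact ⟨γ, ⟨hγ, b, hb, _, h, rfl⟩, γ • a, ⟨_, h, rfl⟩, by simp⟩

theorem near_closed [T2Space X] (G : Geom Γ X) {K : Set (X × X)} (hK : IsCompact K) (b : X) :
    IsClosed {a : X | Near Γ K a b} := by
  have hF := G.proper {b} _ isCompact_singleton (hK.image continuous_snd)
  have h : {a : X | Near Γ K a b} = ⋃ f ∈ {γ : Λ | γ ∈ Γ ∧ ∃ x ∈ ({b} : Set X),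
      γ • x ∈ Prod.snd '' K}, (fun a => (f • a, f • b)) ⁻¹' K := by
    ext a
    simp only [mem_setOf_eq, mem_iUnion, mem_preimage]
    constructor
    · rintro ⟨γ, hγ, h⟩
      exact ⟨γ, ⟨hγ, b, rfl, _, h, rfl⟩, h⟩
    · rintro ⟨γ, ⟨hγ, -⟩, h⟩
      exact ⟨γ, hγ, h⟩
  rw [h]
  refine hF.isClosed_biUnion fun f _ => hK.isClosed.preimage ?_
  exact (G.cont f).prodMk continuous_const

end near

section maps

variable {Γ : Subgroup Λ} {X Y : Type*} [TopologicalSpace X] [MulAction Λ X]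
  [TopologicalSpace Y] [MulAction Λ Y]

theorem coarse {h : X → Y} (hb : Bdd h) (he : ∀ γ ∈ Γ, ∀ x, h (γ • x) = γ • h x)
    {K : Set (X × X)} (hK : IsCompact K) : ∃ L : Set (Y × Y), IsCompact L ∧
      ∀ x x', Near Γ K x x' → Near Γ L (h x) (h x') := by
  obtain ⟨B, hB, h1⟩ := hb _ ((hK.image continuous_fst).union (hK.image continuous_snd))
  refine ⟨B ×ˢ B, hB.prod hB, ?_⟩
  rintro x x' ⟨γ, hγ, h2⟩
  refine ⟨γ, hγ, ?_, ?_⟩
  · show γ • h x ∈ B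
    rw [← he γ hγ]
    exact h1 _ (Or.inl ⟨_, h2, rfl⟩)
  · show γ • h x' ∈ B
    rw [← he γ hγ]
    exact h1 _ (Or.inr ⟨_, h2, rfl⟩)

theorem close (G : Geom Γ X) {c : Λ → Λ} (hc : ∀ γ ∈ Γ, c γ ∈ Γ) {h h' : X → Y} (hb : Bdd h)
    (hb' : Bdd h') (he : ∀ γ ∈ Γ, ∀ x, h (γ • x) = c γ • h x)
    (he' : ∀ γ ∈ Γ, ∀ x, h' (γ • x) = c γ • h' x) :
    ∃ L : Set (Y × Y), IsCompact L ∧ ∀ x, Near Γ L (h x) (h' x) := by
  obtain ⟨C, hC, h1⟩ := G.cocompact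
  obtain ⟨B, hB, h2⟩ := hb C hC
  obtain ⟨B', hB', h3⟩ := hb' C hC
  refine ⟨B ×ˢ B', hB.prod hB', fun x => ?_⟩
  obtain ⟨γ, hγ, h4⟩ := h1 x
  refine ⟨c γ, hc γ hγ, ?_, ?_⟩
  · show c γ • h x ∈ B
    rw [← he γ hγ]
    exact h2 _ h4
  · show c γ • h' x ∈ B'
    rw [← he' γ hγ]
    exact h3 _ h4

theorem exists_coarse (G : Geom Γ X) [Nonempty Y] :
    ∃ h : X → Y, Bdd h ∧ ∀ γ ∈ Γ, ∀ x, h (γ • x) = γ • h x := by
  classical
  obtain ⟨C, hC, h1⟩ := G.cocompact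
  obtain ⟨y0⟩ := ‹Nonempty Y›
  -- a representative in `C` for every orbit
  let r : X → X := fun x => (Quotient.mk (MulAction.orbitRel Γ X) x).out
  have hr : ∀ x, ∃ γ ∈ Γ, γ • r x = x := by
    intro x
    have h := Quotient.exact (Quotient.out_eq (Quotient.mk (MulAction.orbitRel Γ X) x))
    have h' : r x ∈ MulAction.orbit Γ x := h
    obtain ⟨g, hg⟩ := h'
    refine ⟨(g : Λ)⁻¹, Γ.inv_mem g.2, ?_⟩
    rw [← hg]
    show (g : Λ)⁻¹ • ((g : Λ) • x) = x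
    simp
  have hrr : ∀ γ ∈ Γ, ∀ x, r (γ • x) = r x := by
    intro γ hγ x
    have : Quotient.mk (MulAction.orbitRel Γ X) (γ • x) = Quotient.mk (MulAction.orbitRel Γ X) x :=
      Quotient.sound ⟨⟨γ, hγ⟩, rfl⟩
    show (Quotient.mk (MulAction.orbitRel Γ X) (γ • x)).out = _
    rw [this]
  choose g hg1 hg2 using h1
  let ρ : X → X := fun x => g (r x) • r x
  have hρC : ∀ x, ρ x ∈ C := fun x => hg2 _
  have hρe : ∀ γ ∈ Γ, ∀ x, ρ (γ • x) = ρ x := by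
    intro γ hγ x
    show g (r (γ • x)) • r (γ • x) = _
    rw [hrr γ hγ]
  have hρ : ∀ x, ∃ γ ∈ Γ, γ • ρ x = x := by
    intro x
    obtain ⟨γ, hγ, h⟩ := hr x
    refine ⟨γ * (g (r x))⁻¹, Γ.mul_mem hγ (Γ.inv_mem (hg1 _)), ?_⟩
    show (γ * (g (r x))⁻¹) • (g (r x) • r x) = x
    rw [← mul_smul]
    simp [h]
  choose k hk1 hk2 using hρ
  have hke : ∀ γ ∈ Γ, ∀ x, k (γ • x) = γ * k x := by
    intro γ hγ x
    have h2 : k (γ • x) • ρ x = (γ * k x) • ρ x := by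
      rw [mul_smul, hk2 x, ← hρe γ hγ x, hk2 (γ • x)]
    have h3 : ((γ * k x)⁻¹ * k (γ • x)) • ρ x = ρ x := by
      rw [mul_smul, h2, ← mul_smul]
      simp
    have h4 := G.free _ (Γ.mul_mem (Γ.inv_mem (Γ.mul_mem hγ (hk1 x))) (hk1 _)) _ h3
    rw [inv_mul_eq_one] at h4
    exact h4.symm
  refine ⟨fun x => k x • y0, ?_, ?_⟩
  · intro A hA
    have hF := G.proper C A hC hA
    refine ⟨(fun γ : Λ => γ • y0) '' {γ : Λ | γ ∈ Γ ∧ ∃ x ∈ C, γ • x ∈ A},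
      (hF.image _).isCompact, fun x hx => ⟨k x, ⟨hk1 x, ρ x, hρC x, ?_⟩, rfl⟩⟩
    rw [hk2 x]
    exact hx
  · intro γ hγ x
    show k (γ • x) • y0 = γ • (k x • y0)
    rw [hke γ hγ x, mul_smul]

end maps

end Vale.Agent.P260.H135
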