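import Vale.Agent.P260.H135.Coarse

/-!
# The semiconjugacy of two coarse actions, and its injectivity
-/

open Set Topology Filter

namespace Vale.Agent.P260.H135

variable {Λ : Type*} [Group Λ] {Γ : Subgroup Λ} [Γ.Normal] {X Y : Type*} [TopologicalSpace X]
  [MulAction Λ X] [TopologicalSpace Y] [MulAction Λ Y]

/-- Coarse shadowing on `X` implies that the orbits of every `Y` are globally shadowed in `X`. -/
theorem globShadow_of_shadowing [Nonempty X] (G : Geom Γ X) (H : Geom Γ Y)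
    (hS : Shadowing Γ X) : GlobShadow Γ X Y := by
  obtain ⟨h0, hb, he⟩ := exists_coarse (Y := X) H
  -- the coarse map almost commutes with `Λ`
  have hQ : ∀ m : Λ, ∃ L : Set (X × X), IsCompact L ∧ ∀ y, Near Γ L (m • h0 y) (h0 (m • y)) := by
    intro m
    refine close H (c := fun γ => m * γ * m⁻¹) (fun γ hγ => ‹Γ.Normal›.conj_mem γ hγ m) ?_ ?_ ?_ ?_
    · intro A hA
      obtain ⟨B, hB, h⟩ := hb A hA
      exact ⟨(fun x => m • x) '' B, hB.image (G.cont m), fun x hx => ⟨_, h x hx, rfl⟩⟩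
    · intro A hA
      obtain ⟨B, hB, h⟩ := hb _ (hA.image (H.cont m))
      exact ⟨B, hB, fun x hx => h _ ⟨x, hx, rfl⟩⟩
    · intro γ hγ y
      show m • h0 (γ • y) = (m * γ * m⁻¹) • (m • h0 y)
      rw [he γ hγ, ← mul_smul, ← mul_smul]
      simp
    · intro γ hγ y
      show h0 (m • (γ • y)) = (m * γ * m⁻¹) • h0 (m • y)
      rw [← he _ (‹Γ.Normal›.conj_mem γ hγ m), ← mul_smul, ← mul_smul]
      simp
  choose L hL hL' using hQ
  obtain ⟨K', hK', hsh⟩ := hS L hL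
  refine ⟨h0, hb, he, K', hK', univ, dense_univ, fun y _ => ?_⟩
  refine hsh (fun l : Λ => h0 (l • y)) ?_ ?_
  · intro γ hγ l
    show h0 ((γ * l) • y) = γ • h0 (l • y)
    rw [mul_smul, he γ hγ]
  · intro m l
    show Near Γ (L m) (m • h0 (l • y)) (h0 ((m * l) • y))
    rw [mul_smul]
    exact hL' m _

omit [Γ.Normal] in
/-- Closeness of orbits is stable under small changes of the starting point, with one constant for
all elements of `Λ`. -/
theorem near_cont [LocallyCompactSpace Y] (G : Geom Γ X) (H : Geom Γ Y) {h0 : Y → X} (hb : Bdd h0)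
    (he : ∀ γ ∈ Γ, ∀ y, h0 (γ • y) = γ • h0 y) {K' : Set (X × X)} (hK' : IsCompact K') :
    ∃ M : Set (X × X), IsCompact M ∧ ∀ (y0 : Y) (l : Λ), ∀ᶠ y in 𝓝 y0, ∀ x : X,
      Near Γ K' x (h0 (l • y)) → Near Γ M x (h0 (l • y0)) := by
  obtain ⟨C, hC, hC'⟩ := H.cocompact
  obtain ⟨C', hC1, hC2⟩ := exists_compact_superset hC
  obtain ⟨D, hD, hD'⟩ := coarse hb he (hC1.prod hC1)
  obtain ⟨M, hM, hM'⟩ := near_trans G hK' hD
  refine ⟨M, hM, fun y0 l => ?_⟩
  obtain ⟨γ, hγ, h1⟩ := hC' (l • y0)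
  have h2 : ∀ᶠ y in 𝓝 y0, γ • l • y ∈ interior C' := by
    have hc : Continuous fun y : Y => γ • l • y := (H.cont γ).comp (H.cont l)
    exact hc.continuousAt.eventually_mem (isOpen_interior.mem_nhds (hC2 h1))
  filter_upwards [h2] with y hy
  intro x hx
  refine hM' _ _ _ hx (hD' _ _ ⟨γ, hγ, interior_subset hy, ?_⟩)
  exact interior_subset (hC2 h1)

omit [Γ.Normal] in
/-- Limits of shadows are shadows. -/
theorem shadow_limit [T2Space X] [LocallyCompactSpace Y] (G : Geom Γ X) {h0 : Y → X}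
    (hb : Bdd h0) {K' : Set (X × X)} (hK' : IsCompact K') {M : Set (X × X)} (hM : IsCompact M)
    (hev : ∀ (y0 : Y) (l : Λ), ∀ᶠ y in 𝓝 y0, ∀ x : X,
      Near Γ K' x (h0 (l • y)) → Near Γ M x (h0 (l • y0)))
    (k : Y → X) (D : Set Y) (hk : ∀ y ∈ D, ∀ l : Λ, Near Γ K' (l • k y) (h0 (l • y)))
    (y0 : Y) (U : Ultrafilter Y) (hU : (U : Filter Y) ≤ 𝓝 y0) (hUD : D ∈ U) :
    ∃ x : X, Tendsto k U (𝓝 x) ∧ ∀ l : Λ, Near Γ M (l • x) (h0 (l • y0)) := by
  obtain ⟨A, hA, hA1⟩ := exists_compact_mem_nhds y0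
  obtain ⟨B, hB, hB1⟩ := hb A hA
  obtain ⟨B', hB', hB2⟩ := near_bdd G hK' hB
  have hkA : ∀ y ∈ A ∩ D, k y ∈ B' := by
    rintro y ⟨hy, hyD⟩
    refine hB2 _ (h0 y) (hB1 y hy) ?_
    have := hk y hyD 1
    rwa [one_smul, one_smul] at this
  have hmem : B' ∈ U.map k := by
    rw [Ultrafilter.mem_map]
    exact Filter.mem_of_superset (Filter.inter_mem (hU hA1) hUD) hkA
  obtain ⟨x, hx, hxU⟩ := hB'.ultrafilter_le_nhds' (U.map k) hmem
  have ht : Tendsto k U (𝓝 x) := hxU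
  refine ⟨x, ht, fun l => ?_⟩
  have hcl : IsClosed {x : X | Near Γ M (l • x) (h0 (l • y0))} :=
    (near_closed G hM (h0 (l • y0))).preimage (G.cont l)
  refine hcl.mem_of_tendsto ht ?_
  filter_upwards [hU (hev y0 l), hUD] with y hy hyD
  exact hy _ (hk y hyD l)

omit [Γ.Normal] in
/-- If the action on `X` is coarsely expansive and a dense set of orbits of `Y` is globally shadowed
in `X`, then there is a continuous equivariant map `Y → X`. -/
theorem exists_semiconj [T2Space X] [LocallyCompactSpace Y] (G : Geom Γ X)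
    (H : Geom Γ Y) (hE : Expansive Γ X) (hS : GlobShadow Γ X Y) :
    ∃ k : Y → X, Continuous k ∧ ∀ l : Λ, ∀ y, k (l • y) = l • k y := by
  obtain ⟨h0, hb, he, K, hK, D, hD, hx⟩ := hS
  -- all orbits are shadowed
  have hall : ∃ K' : Set (X × X), IsCompact K' ∧ ∀ y : Y, ∃ x : X, ∀ l : Λ,
      Near Γ K' (l • x) (h0 (l • y)) := by
    obtain ⟨M, hM, hev⟩ := near_cont G H hb he hK
    refine ⟨M, hM, fun y0 => ?_⟩
    obtain ⟨U, hUD, hU⟩ := mem_closure_iff_ultrafilter.1 (hD y0)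
    by_cases hne : Nonempty X
    · choose! s hs using hx
      obtain ⟨x, -, h⟩ := shadow_limit G hb hK hM hev s D hs y0 U hU hUD
      exact ⟨x, h⟩
    · exact absurd ⟨h0 y0⟩ hne
  obtain ⟨K', hK', hx'⟩ := hall
  choose k hk using hx'
  -- uniqueness
  have huniq : ∀ (y : Y) (x : X), (∃ M : Set (X × X), IsCompact M ∧
      ∀ l : Λ, Near Γ M (l • x) (h0 (l • y))) → x = k y := by
    rintro y x ⟨M, hM, h⟩
    obtain ⟨K'', hK'', hsy⟩ := near_symm (Γ := Γ) hK'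
    obtain ⟨N, hN, htr⟩ := near_trans G hM hK''
    exact hE _ _ ⟨N, hN, fun l => htr _ _ _ (h l) (hsy _ _ (hk y l))⟩
  refine ⟨k, ?_, ?_⟩
  swap
  · intro m y
    refine (huniq (m • y) (m • k y) ⟨K', hK', fun l => ?_⟩).symm
    have := hk y (l * m)
    rwa [mul_smul, mul_smul] at this
  -- continuity
  obtain ⟨M, hM, hev⟩ := near_cont G H hb he hK'
  rw [continuous_iff_ultrafilter]
  intro y0 U hU
  obtain ⟨x, hxU, h⟩ := shadow_limit G hb hK' hM hev k univ (fun y _ => hk y) y0 U hU univ_mem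
  rw [← huniq y0 x ⟨M, hM, h⟩]
  exact hxU

omit [Γ.Normal] in
theorem semiconj_injective [Nonempty Y] (G : Geom Γ X) (H : Geom Γ Y) (hE : Expansive Γ Y)
    {k : Y → X} (hk : Continuous k) (he : ∀ l : Λ, ∀ y, k (l • y) = l • k y) :
    Function.Injective k := by
  obtain ⟨j, hb, hj⟩ := exists_coarse (Y := Y) G
  intro y y' hyy
  obtain ⟨L, hL, hL'⟩ := close H (c := id) (fun γ hγ => hγ) (h := fun y => j (k y)) (h' := id)
    (fun A hA => by
      obtain ⟨B, hB, h⟩ := hb _ (hA.image hk)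
      exact ⟨B, hB, fun x hx => h _ ⟨x, hx, rfl⟩⟩)
    (fun A hA => ⟨A, hA, fun x hx => hx⟩)
    (fun γ hγ y => by
      show j (k (γ • y)) = γ • j (k y)
      rw [he, hj γ hγ])
    (fun γ hγ y => rfl)
  obtain ⟨L', hLc, hsy⟩ := near_symm (Γ := Γ) hL
  obtain ⟨M, hM, htr⟩ := near_trans H hLc hL
  refine hE y y' ⟨M, hM, fun l => ?_⟩
  refine htr _ (j (k (l • y))) _ (hsy _ _ (hL' (l • y))) ?_
  have h1 : k (l • y) = k (l • y') := by rw [he, he, hyy]
  rw [h1]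
  exact hL' (l • y')

omit [Γ.Normal] in
/-- The image of an equivariant continuous map is closed. -/
theorem isClosed_range [T2Space X] [LocallyCompactSpace X] (G : Geom Γ X) (H : Geom Γ Y)
    {k : Y → X} (hk : Continuous k) (he : ∀ l : Λ, ∀ y, k (l • y) = l • k y) :
    IsClosed (range k) := by
  obtain ⟨C, hC, hC'⟩ := H.cocompact
  rw [isClosed_iff_ultrafilter]
  intro x U hU hr
  obtain ⟨A, hA, hA1⟩ := exists_compact_mem_nhds x
  have hF := G.proper A _ hA (hC.image hk)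
  have hcl : IsClosed (⋃ f ∈ {γ : Λ | γ ∈ Γ ∧ ∃ x ∈ A, γ • x ∈ k '' C},
      (fun x => f • x) ⁻¹' (k '' C)) :=
    hF.isClosed_biUnion fun f _ => ((hC.image hk).isClosed).preimage (G.cont f)
  have hsub : A ∩ range k ⊆ ⋃ f ∈ {γ : Λ | γ ∈ Γ ∧ ∃ x ∈ A, γ • x ∈ k '' C},
      (fun x => f • x) ⁻¹' (k '' C) := by
    rintro _ ⟨hz, y, rfl⟩
    obtain ⟨γ, hγ, h1⟩ := hC' y
    simp only [mem_iUnion]
    have h2 : γ • k y ∈ k '' C := ⟨γ • y, h1, he γ y⟩
    exact ⟨γ, ⟨hγ, k y, hz, h2⟩, h2⟩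
  have hxm := isClosed_iff_ultrafilter.1 hcl x U hU
    (Filter.mem_of_superset (Filter.inter_mem (hU hA1) hr) hsub)
  simp only [mem_iUnion] at hxm
  obtain ⟨f, -, y, -, hy⟩ := hxm
  refine ⟨f⁻¹ • y, ?_⟩
  have hy' : k y = f • x := hy
  rw [he, hy']
  simp

end Vale.Agent.P260.H135
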