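import Vale.Agent.P260.H135.Inst

/-!
# The converse: an equivariant homeomorphism transports expansivity and gives global shadowing
-/

open Set Topology Filter

namespace Vale.Agent.P260.H135

variable {Λ : Type*} [Group Λ] {Γ : Subgroup Λ} {X Y : Type*} [TopologicalSpace X]
  [MulAction Λ X] [TopologicalSpace Y] [MulAction Λ Y]

theorem expansive_of_homeo (k : Y ≃ₜ X) (he : ∀ l : Λ, ∀ y, k (l • y) = l • k y)
    (hE : Expansive Γ X) : Expansive Γ Y := by
  rintro y y' ⟨K, hK, h⟩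
  apply k.injective
  refine hE _ _ ⟨(fun p : Y × Y => (k p.1, k p.2)) '' K, hK.image ?_, fun l => ?_⟩
  · exact (k.continuous.comp continuous_fst).prodMk (k.continuous.comp continuous_snd)
  · obtain ⟨γ, hγ, h1⟩ := h l
    refine ⟨γ, hγ, _, h1, ?_⟩
    show (k (γ • l • y), k (γ • l • y')) = (γ • l • k y, γ • l • k y')
    rw [he, he, he, he]

theorem globShadow_of_homeo (G : Geom Γ X) (k : Y ≃ₜ X)
    (he : ∀ l : Λ, ∀ y, k (l • y) = l • k y) : GlobShadow Γ X Y := by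
  obtain ⟨C, hC, hC'⟩ := G.cocompact
  refine ⟨k, fun A hA => ⟨k '' A, hA.image k.continuous, fun x hx => ⟨x, hx, rfl⟩⟩,
    fun γ _ y => he γ y, C ×ˢ C, hC.prod hC, univ, dense_univ,
    fun y _ => ⟨k y, fun l => ?_⟩⟩
  rw [he]
  obtain ⟨γ, hγ, h⟩ := hC' (l • k y)
  exact ⟨γ, hγ, h, h⟩

end Vale.Agent.P260.H135
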