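import Vale.Agent.P260.H135.Main

/-!
# From Mathlib's classes to `Geom`, and the quotient homeomorphism
-/

open Set Topology Filter

namespace Vale.Agent.P260.H135

variable {Λ : Type*} [Group Λ] {Γ : Subgroup Λ} {X Y : Type*} [TopologicalSpace X]
  [MulAction Λ X] [TopologicalSpace Y] [MulAction Λ Y]

theorem geom_of [LocallyCompactSpace X] [ContinuousConstSMul Λ X]
    [ProperlyDiscontinuousSMul Γ X] [CompactSpace (MulAction.orbitRel.Quotient Γ X)]
    (hf : ∀ γ : Γ, ∀ x : X, γ • x = x → γ = 1) : Geom Γ X where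
  cont l := continuous_const_smul l
  free γ hγ x h := by
    have := hf ⟨γ, hγ⟩ x h
    exact congrArg Subtype.val this
  proper K L hK hL := by
    have h := ProperlyDiscontinuousSMul.finite_disjoint_inter_image (Γ := Γ) hK hL
    refine (h.image (Subtype.val)).subset ?_
    rintro γ ⟨hγ, x, hx, hx'⟩
    have hne : ((((⟨γ, hγ⟩ : Γ) • ·) '' K) ∩ L).Nonempty := ⟨γ • x, ⟨x, hx, rfl⟩, hx'⟩
    exact ⟨⟨γ, hγ⟩, hne, rfl⟩
  cocompact := by
    have : ContinuousConstSMul Γ X := ⟨fun γ => continuous_const_smul (γ : Λ)⟩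
    have hop : IsOpenMap (Quotient.mk (MulAction.orbitRel Γ X)) :=
      isOpenMap_quotient_mk'_mul
    choose K hK hK' using fun x : X => exists_compact_mem_nhds x
    have hcov : (univ : Set (MulAction.orbitRel.Quotient Γ X)) ⊆
        ⋃ x : X, (Quotient.mk (MulAction.orbitRel Γ X)) '' interior (K x) := by
      intro q _
      obtain ⟨x, rfl⟩ := Quotient.exists_rep q
      exact mem_iUnion.2 ⟨x, x, mem_interior_iff_mem_nhds.2 (hK' x), rfl⟩
    obtain ⟨t, ht⟩ := isCompact_univ.elim_finite_subcover _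
      (fun x => hop _ isOpen_interior) hcov
    refine ⟨⋃ x ∈ t, K x, t.isCompact_biUnion fun x _ => hK x, fun z => ?_⟩
    have hz := ht (mem_univ (Quotient.mk (MulAction.orbitRel Γ X) z))
    simp only [mem_iUnion] at hz
    obtain ⟨x, hx, w, hw, hwz⟩ := hz
    have h1 : w ∈ MulAction.orbit Γ z := Quotient.exact hwz
    obtain ⟨γ, hγ⟩ := h1
    refine ⟨γ, γ.2, ?_⟩
    have h2 : (γ : Λ) • z = w := hγ
    rw [h2]
    exact mem_iUnion₂.2 ⟨x, hx, interior_subset hw⟩

/-- An equivariant homeomorphism descends to the quotients. -/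
theorem quot_homeo (k : Y ≃ₜ X) (he : ∀ l : Λ, ∀ y, k (l • y) = l • k y) :
    Nonempty (MulAction.orbitRel.Quotient Γ Y ≃ₜ MulAction.orbitRel.Quotient Γ X) := by
  have he' : ∀ l : Λ, ∀ x, k.symm (l • x) = l • k.symm x := by
    intro l x
    apply k.injective
    rw [he, k.apply_symm_apply, k.apply_symm_apply]
  let f : MulAction.orbitRel.Quotient Γ Y → MulAction.orbitRel.Quotient Γ X :=
    Quotient.map k (by
      rintro a b ⟨γ, rfl⟩
      exact ⟨γ, (he γ b).symm⟩)
  let g : MulAction.orbitRel.Quotient Γ X → MulAction.orbitRel.Quotient Γ Y :=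
    Quotient.map k.symm (by
      rintro a b ⟨γ, rfl⟩
      exact ⟨γ, (he' γ b).symm⟩)
  refine ⟨⟨⟨f, g, ?_, ?_⟩, ?_, ?_⟩⟩
  · intro q
    obtain ⟨x, rfl⟩ := Quotient.exists_rep q
    show Quotient.mk _ (k.symm (k x)) = Quotient.mk _ x
    rw [k.symm_apply_apply]
  · intro q
    obtain ⟨x, rfl⟩ := Quotient.exists_rep q
    show Quotient.mk _ (k (k.symm x)) = Quotient.mk _ x
    rw [k.apply_symm_apply]
  · exact continuous_quot_lift _ (continuous_quot_mk.comp k.continuous)
  · exact continuous_quot_lift _ (continuous_quot_mk.comp k.symm.continuous)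

end Vale.Agent.P260.H135
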