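import Vale.Agent.P260.H135.Conj
import Vale.Agent.P073.IoD
import Mathlib.Geometry.Manifold.ChartedSpace
import Mathlib.Analysis.InnerProductSpace.PiL2
import Mathlib.Topology.Homotopy.Contractible

/-!
# Rigidity of closed aspherical manifolds with coarsely expansive group actions
-/

open Set Topology Filter

namespace Vale.Agent.P260.H135

/-- Invariance of domain for topological manifolds. -/
theorem isOpenMap_of_injective {n : ℕ} {X Y : Type*} [TopologicalSpace X] [TopologicalSpace Y]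
    [ChartedSpace (EuclideanSpace ℝ (Fin n)) X] [ChartedSpace (EuclideanSpace ℝ (Fin n)) Y]
    {k : Y → X} (hk : Continuous k) (hi : Function.Injective k) : IsOpenMap k := by
  intro O hO
  rw [isOpen_iff_mem_nhds]
  rintro _ ⟨y, hy, rfl⟩
  let e : EuclideanSpace ℝ (Fin n) ≃ₜ (Fin n → ℝ) := (EuclideanSpace.equiv (Fin n) ℝ).toHomeomorph
  let φ := (chartAt (EuclideanSpace ℝ (Fin n)) y).transHomeomorph e
  let ψ := (chartAt (EuclideanSpace ℝ (Fin n)) (k y)).transHomeomorph e
  have hφ : y ∈ φ.source := mem_chart_source _ y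
  have hψ : k y ∈ ψ.source := mem_chart_source _ (k y)
  let W : Set Y := O ∩ φ.source ∩ k ⁻¹' ψ.source
  have hW : IsOpen W := (hO.inter φ.open_source).inter (ψ.open_source.preimage hk)
  have hWs : W ⊆ φ.source := fun z hz => hz.1.2
  have hU : IsOpen (φ '' W) := φ.isOpen_image_of_subset_source hW hWs
  have hf : ContinuousOn (fun v => ψ (k (φ.symm v))) (φ '' W) := by
    have h1 : ContinuousOn φ.symm (φ '' W) := φ.continuousOn_symm.mono (by
      rintro _ ⟨z, hz, rfl⟩
      exact φ.map_source (hWs hz))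
    have h2 : MapsTo (fun v => k (φ.symm v)) (φ '' W) ψ.source := by
      rintro _ ⟨z, hz, rfl⟩
      show k (φ.symm (φ z)) ∈ ψ.source
      rw [φ.left_inv (hWs hz)]
      exact hz.2
    exact ψ.continuousOn.comp (hk.comp_continuousOn h1) h2
  have hinj : InjOn (fun v => ψ (k (φ.symm v))) (φ '' W) := by
    rintro _ ⟨z, hz, rfl⟩ _ ⟨z', hz', rfl⟩ h
    have h' : ψ (k (φ.symm (φ z))) = ψ (k (φ.symm (φ z'))) := h
    rw [φ.left_inv (hWs hz), φ.left_inv (hWs hz')] at h'
    rw [hi (ψ.injOn hz.2 hz'.2 h')]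
  have hopen := Vale.Agent.P073.Sep.isOpen_image_of_injOn hU hf hinj
  have himg : (fun v => ψ (k (φ.symm v))) '' (φ '' W) = ψ '' (k '' W) := by
    rw [image_image, image_image]
    refine image_congr fun z hz => ?_
    show ψ (k (φ.symm (φ z))) = ψ (k z)
    rw [φ.left_inv (hWs hz)]
  rw [himg] at hopen
  have hkW : k '' W ⊆ ψ.source := by
    rintro _ ⟨z, hz, rfl⟩
    exact hz.2
  have h3 : IsOpen (k '' W) := by
    have h4 : ψ.symm '' (ψ '' (k '' W)) = k '' W := by
      rw [image_image]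
      refine (image_congr fun z hz => ?_).trans (image_id _)
      exact ψ.left_inv (hkW hz)
    rw [← h4]
    refine ψ.symm.isOpen_image_of_subset_source hopen ?_
    rintro _ ⟨z, hz, rfl⟩
    exact ψ.map_source (hkW hz)
  exact Filter.mem_of_superset (h3.mem_nhds ⟨y, ⟨⟨hy, hφ⟩, hψ⟩, rfl⟩)
    (image_mono fun z hz => hz.1.1)

variable {Λ : Type*} [Group Λ] {Γ : Subgroup Λ} {X Y : Type*} [TopologicalSpace X]
  [MulAction Λ X] [TopologicalSpace Y] [MulAction Λ Y]

/-- The rigidity theorem. -/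
theorem rigidity {n : ℕ} [T2Space X] [ConnectedSpace X] [Nonempty Y]
    [ChartedSpace (EuclideanSpace ℝ (Fin n)) X] [ChartedSpace (EuclideanSpace ℝ (Fin n)) Y]
    (G : Geom Γ X) (H : Geom Γ Y) (hEX : Expansive Γ X) (hEY : Expansive Γ Y)
    (hS : GlobShadow Γ X Y) :
    ∃ k : Y ≃ₜ X, ∀ l : Λ, ∀ y, k (l • y) = l • k y := by
  have : LocallyCompactSpace X := ChartedSpace.locallyCompactSpace (EuclideanSpace ℝ (Fin n)) X
  have : LocallyCompactSpace Y := ChartedSpace.locallyCompactSpace (EuclideanSpace ℝ (Fin n)) Y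
  obtain ⟨k, hk, he⟩ := exists_semiconj G H hEX hS
  have hi := semiconj_injective G H hEY hk he
  have ho := isOpenMap_of_injective (n := n) hk hi
  have hr : range k = univ := by
    refine IsClopen.eq_univ ⟨isClosed_range G H hk he, ho.isOpen_range⟩ ?_
    exact range_nonempty k
  have hbij : Function.Bijective k := ⟨hi, range_eq_univ.1 hr⟩
  exact ⟨(Equiv.ofBijective k hbij).toHomeomorphOfContinuousOpen hk ho, he⟩

end Vale.Agent.P260.H135
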